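import Mathlib

set_option linter.all false

/-!
# P254, (SP_0) line: all two-variable kernel bounds from one-variable facts

`w = exp L` (`= t'`), `nu = L'` antitone and nonnegative.  `IsDD f f1 a b v`: `v` is the divided
difference `f[a,b]` (`= f1 a` on the diagonal).
-/

open Set

namespace Vale.Agent.P254.H271K

/-- `v` is the (first) divided difference of `f` at `a, b`, `f1` the derivative -/
structure IsDD (f f1 : ℝ → ℝ) (a b v : ℝ) : Prop where
  mul : (b - a) * v = f b - f a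
  diag : a = b → v = f1 a

theorem IsDD.symm {f f1 : ℝ → ℝ} {a b v : ℝ} (h : IsDD f f1 a b v) : IsDD f f1 b a v where
  mul := by linarith [h.mul]
  diag := fun e => by rw [h.diag e.symm, e]

theorem isDD_self (f f1 : ℝ → ℝ) (a : ℝ) : IsDD f f1 a a (f1 a) where
  mul := by ring
  diag := fun _ => rfl

theorem isDD_of_ne (f f1 : ℝ → ℝ) {a b : ℝ} (h : a ≠ b) :
    IsDD f f1 a b ((f b - f a) / (b - a)) where
  mul := by
    have : b - a ≠ 0 := sub_ne_zero.2 (Ne.symm h)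
    field_simp
  diag := fun e => absurd e h

theorem IsDD.unique {f f1 : ℝ → ℝ} {a b v v' : ℝ} (h : IsDD f f1 a b v) (h' : IsDD f f1 a b v') :
    v = v' := by
  by_cases e : a = b
  · rw [h.diag e, h'.diag e]
  · have h0 : b - a ≠ 0 := sub_ne_zero.2 (Ne.symm e)
    have h1 := h.mul
    rw [← h'.mul] at h1
    exact mul_left_cancel₀ h0 h1

/-- mean value -/
theorem IsDD.exists {f f1 : ℝ → ℝ} (hf : ∀ x, HasDerivAt f (f1 x) x) {a b v : ℝ}
    (h : IsDD f f1 a b v) : ∃ x ∈ uIcc a b, v = f1 x := by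
  rcases lt_trichotomy a b with hab | hab | hab
  · obtain ⟨x, hx, hx'⟩ := exists_hasDerivAt_eq_slope f f1 hab
      (fun y _ => (hf y).continuousAt.continuousWithinAt) (fun y _ => hf y)
    refine ⟨x, ?_, ?_⟩
    · rw [uIcc_of_le hab.le]
      exact ⟨hx.1.le, hx.2.le⟩
    · exact h.unique (hx' ▸ isDD_of_ne f f1 hab.ne)
  · exact ⟨a, left_mem_uIcc, h.diag hab⟩
  · obtain ⟨x, hx, hx'⟩ := exists_hasDerivAt_eq_slope f f1 hab
      (fun y _ => (hf y).continuousAt.continuousWithinAt) (fun y _ => hf y)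
    refine ⟨x, ?_, ?_⟩
    · rw [uIcc_comm, uIcc_of_le hab.le]
      exact ⟨hx.1.le, hx.2.le⟩
    · exact h.symm.unique (hx' ▸ isDD_of_ne f f1 hab.ne)

theorem mono_of_deriv {g g1 : ℝ → ℝ} (hg : ∀ x, HasDerivAt g (g1 x) x) (h : ∀ x, 0 ≤ g1 x) :
    Monotone g :=
  monotone_of_deriv_nonneg (fun x => (hg x).differentiableAt) fun x => by
    rw [(hg x).deriv]
    exact h x

/-- domination of the increments of `g` by those of `L` -/
theorem abs_sub_le_of_deriv {g g1 L nu : ℝ → ℝ} {c : ℝ} (hc : 0 ≤ c)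
    (hg : ∀ x, HasDerivAt g (g1 x) x)
    (hL : ∀ x, HasDerivAt L (nu x) x) (hb : ∀ x, |g1 x| ≤ c * nu x) (a b : ℝ) :
    |g b - g a| ≤ c * |L b - L a| := by
  have hm1 : Monotone fun x => c * L x - g x :=
    mono_of_deriv (fun x => ((hL x).const_mul c).sub (hg x))
      (fun x => by have := (abs_le.1 (hb x)).2; linarith)
  have hm2 : Monotone fun x => c * L x + g x :=
    mono_of_deriv (fun x => ((hL x).const_mul c).add (hg x))
      (fun x => by have := (abs_le.1 (hb x)).1; linarith)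
  have key : ∀ a b : ℝ, a ≤ b → |g b - g a| ≤ c * |L b - L a| := by
    intro a b hab
    have h1 := hm1 hab
    have h2 := hm2 hab
    dsimp only at h1 h2
    have h3 : |g b - g a| ≤ c * (L b - L a) := abs_le.2 ⟨by linarith, by linarith⟩
    exact h3.trans (mul_le_mul_of_nonneg_left (le_abs_self _) hc)
  rcases le_total a b with h | h
  · exact key a b h
  · rw [abs_sub_comm (g b), abs_sub_comm (L b)]
    exact key b a h

/-- between `a` and `b` the increments of a monotone function are bounded by the full one -/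
theorem abs_sub_le_of_mem {L : ℝ → ℝ} (hL : Monotone L) {a b x : ℝ} (hx : x ∈ uIcc a b) :
    |L x - L a| ≤ |L b - L a| := by
  rcases le_total a b with h | h
  · rw [uIcc_of_le h] at hx
    rw [abs_of_nonneg (sub_nonneg.2 (hL hx.1)), abs_of_nonneg (sub_nonneg.2 (hL h))]
    linarith [hL hx.2]
  · rw [uIcc_comm, uIcc_of_le h] at hx
    rw [abs_of_nonpos (sub_nonpos.2 (hL hx.2)), abs_of_nonpos (sub_nonpos.2 (hL h))]
    linarith [hL hx.1]

/-- **(T1)** `|f[a,b] - f'(a)| ≤ c |L b - L a|` if `|f''| ≤ c L'` -/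
theorem kern_one {f f1 f2 L nu : ℝ → ℝ} {c : ℝ} (hc : 0 ≤ c) (hnu : ∀ x, 0 ≤ nu x)
    (hf : ∀ x, HasDerivAt f (f1 x) x) (hf1 : ∀ x, HasDerivAt f1 (f2 x) x)
    (hL : ∀ x, HasDerivAt L (nu x) x) (hb : ∀ x, |f2 x| ≤ c * nu x) {a b v : ℝ}
    (h : IsDD f f1 a b v) : |v - f1 a| ≤ c * |L b - L a| := by
  obtain ⟨x, hx, rfl⟩ := h.exists hf
  exact (abs_sub_le_of_deriv hc hf1 hL hb a x).trans
    (mul_le_mul_of_nonneg_left (abs_sub_le_of_mem (mono_of_deriv hL hnu) hx) hc)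

/-- the divided difference lies between the derivatives, if `f'` is monotone -/
theorem IsDD.between {f f1 : ℝ → ℝ} (hf : ∀ x, HasDerivAt f (f1 x) x) (hm : Monotone f1)
    {a b v : ℝ} (h : IsDD f f1 a b v) (hab : a ≤ b) : f1 a ≤ v ∧ v ≤ f1 b := by
  obtain ⟨x, hx, rfl⟩ := h.exists hf
  rw [uIcc_of_le hab] at hx
  exact ⟨hm hx.1, hm hx.2⟩

/-- symmetrised version for monotone `f'`:
`(v - f'(a))² + (v - f'(b))² ≤ c² (L b - L a)²` -/
theorem kern_sym {f f1 f2 L nu : ℝ → ℝ} {c : ℝ} (hc : 0 ≤ c)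
    (hf : ∀ x, HasDerivAt f (f1 x) x) (hf1 : ∀ x, HasDerivAt f1 (f2 x) x)
    (hL : ∀ x, HasDerivAt L (nu x) x) (h0 : ∀ x, 0 ≤ f2 x) (hb : ∀ x, f2 x ≤ c * nu x)
    {a b v : ℝ} (h : IsDD f f1 a b v) :
    (v - f1 a) ^ 2 + (v - f1 b) ^ 2 ≤ c ^ 2 * (L b - L a) ^ 2 := by
  have hm : Monotone f1 := mono_of_deriv hf1 h0
  have hb' : ∀ x, |f2 x| ≤ c * nu x := fun x => by rw [abs_of_nonneg (h0 x)]; exact hb x
  have h1 := abs_sub_le_of_deriv hc hf1 hL hb' a b
  have h2 : (f1 b - f1 a) ^ 2 ≤ c ^ 2 * (L b - L a) ^ 2 := by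
    rw [← mul_pow, ← sq_abs (f1 b - f1 a), ← sq_abs (c * (L b - L a)), abs_mul, abs_of_nonneg hc]
    exact pow_le_pow_left₀ (abs_nonneg _) h1 2
  refine le_trans ?_ h2
  rcases le_total a b with hab | hab
  · obtain ⟨h3, h4⟩ := h.between hf hm hab
    nlinarith [mul_nonneg (sub_nonneg.2 h3) (sub_nonneg.2 h4)]
  · obtain ⟨h3, h4⟩ := h.symm.between hf hm hab
    nlinarith [mul_nonneg (sub_nonneg.2 h3) (sub_nonneg.2 h4)]

/-- centred version for monotone `f'`:
`(v - (f'(a) + f'(b))/2)² ≤ (c²/4) (L b - L a)²` -/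
theorem kern_mid {f f1 f2 L nu : ℝ → ℝ} {c : ℝ} (hc : 0 ≤ c)
    (hf : ∀ x, HasDerivAt f (f1 x) x) (hf1 : ∀ x, HasDerivAt f1 (f2 x) x)
    (hL : ∀ x, HasDerivAt L (nu x) x) (h0 : ∀ x, 0 ≤ f2 x) (hb : ∀ x, f2 x ≤ c * nu x)
    {a b v : ℝ} (h : IsDD f f1 a b v) :
    (v - (f1 a + f1 b) / 2) ^ 2 ≤ c ^ 2 / 4 * (L b - L a) ^ 2 := by
  have hm : Monotone f1 := mono_of_deriv hf1 h0
  have hb' : ∀ x, |f2 x| ≤ c * nu x := fun x => by rw [abs_of_nonneg (h0 x)]; exact hb x
  have h1 := abs_sub_le_of_deriv hc hf1 hL hb' a b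
  have h2 : (f1 b - f1 a) ^ 2 ≤ c ^ 2 * (L b - L a) ^ 2 := by
    rw [← mul_pow, ← sq_abs (f1 b - f1 a), ← sq_abs (c * (L b - L a)), abs_mul, abs_of_nonneg hc]
    exact pow_le_pow_left₀ (abs_nonneg _) h1 2
  rcases le_total a b with hab | hab
  · obtain ⟨h3, h4⟩ := h.between hf hm hab
    nlinarith [mul_nonneg (sub_nonneg.2 h3) (sub_nonneg.2 h4)]
  · obtain ⟨h3, h4⟩ := h.symm.between hf hm hab
    nlinarith [mul_nonneg (sub_nonneg.2 h3) (sub_nonneg.2 h4)]

/-- **(T1c)** the commutator kernel of #14224 (1):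
`c = (r[ab] - r'(a)) + r(a) (r'[ab] - r''(a)) - r'(b) (r[ab] - r'(b))`, with
`0 ≤ r' ≤ 1/2`, `0 ≤ r'' ≤ c₁ ν`, `|(r r')''| ≤ c₂ ν`: `|c| ≤ (c₁ + c₂) |L b - L a|` -/
theorem kern_comm {r r1 r2 q2 L nu : ℝ → ℝ} {c₁ c₂ : ℝ} (hc₁ : 0 ≤ c₁) (hc₂ : 0 ≤ c₂)
    (hnu : ∀ x, 0 ≤ nu x)
    (hr : ∀ x, HasDerivAt r (r1 x) x) (hr1 : ∀ x, HasDerivAt r1 (r2 x) x)
    (hq : ∀ x, HasDerivAt (fun y => r1 y ^ 2 + r y * r2 y) (q2 x) x)
    (hL : ∀ x, HasDerivAt L (nu x) x) (h10 : ∀ x, 0 ≤ r1 x) (h11 : ∀ x, r1 x ≤ 1 / 2)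
    (h20 : ∀ x, 0 ≤ r2 x) (h2b : ∀ x, r2 x ≤ c₁ * nu x) (hqb : ∀ x, |q2 x| ≤ c₂ * nu x)
    {a b v v1 : ℝ} (h : IsDD r r1 a b v) (h1 : IsDD r1 r2 a b v1) :
    |(v - r1 a) + r a * (v1 - r2 a) - r1 b * (v - r1 b)| ≤ (c₁ + c₂) * |L b - L a| := by
  -- `(r r')[ab] = r a r'[ab] + r[ab] r'(b)`
  have hq' : IsDD (fun y => r y * r1 y) (fun y => r1 y ^ 2 + r y * r2 y) a b
      (r a * v1 + v * r1 b) := by
    refine ⟨?_, ?_⟩
    · have e1 := h.mul
      have e2 := h1.mul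
      have : (b - a) * (r a * v1 + v * r1 b) = r a * ((b - a) * v1) + ((b - a) * v) * r1 b := by
        ring
      rw [this, e1, e2]
      ring
    · intro e
      subst e
      rw [h.diag rfl, h1.diag rfl]
      ring
  have hqd : ∀ x, HasDerivAt (fun y => r y * r1 y) (r1 x ^ 2 + r x * r2 x) x := by
    intro x
    have := (hr x).mul (hr1 x)
    rw [show r1 x ^ 2 + r x * r2 x = r1 x * r1 x + r x * r2 x by ring]
    exact this
  have k2 := kern_one hc₂ hnu hqd hq hL hqb hq'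
  have hm : Monotone r1 := mono_of_deriv hr1 h20
  have hb' : ∀ x, |r2 x| ≤ c₁ * nu x := fun x => by rw [abs_of_nonneg (h20 x)]; exact h2b x
  have k1 := abs_sub_le_of_deriv hc₁ hr1 hL hb' a b
  have e : (v - r1 a) + r a * (v1 - r2 a) - r1 b * (v - r1 b) =
      ((v - r1 a) * (1 - 2 * r1 b) + (r1 b - r1 a) ^ 2)
        + (r a * v1 + v * r1 b - (r1 a ^ 2 + r a * r2 a)) := by ring
  rw [e]
  have k3 : |(v - r1 a) * (1 - 2 * r1 b) + (r1 b - r1 a) ^ 2| ≤ |r1 b - r1 a| := by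
    have b0 := h10 b
    have b1 := h11 b
    have a0 := h10 a
    have a1 := h11 a
    rcases le_total a b with hab | hab
    · obtain ⟨h3, h4⟩ := h.between hr hm hab
      have h5 := hm hab
      rw [abs_of_nonneg (sub_nonneg.2 h5)]
      refine abs_le.2 ⟨?_, ?_⟩
      · nlinarith [mul_nonneg (sub_nonneg.2 h3) (by linarith : 0 ≤ 1 - 2 * r1 b),
          sq_nonneg (r1 b - r1 a)]
      · nlinarith [mul_nonneg (sub_nonneg.2 h4) (by linarith : 0 ≤ 1 - 2 * r1 b),
          mul_nonneg (sub_nonneg.2 h5) a0, mul_nonneg (sub_nonneg.2 h5) b0]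
    · obtain ⟨h3, h4⟩ := h.symm.between hr hm hab
      have h5 := hm hab
      rw [abs_of_nonpos (sub_nonpos.2 h5)]
      refine abs_le.2 ⟨?_, ?_⟩
      · nlinarith [mul_nonneg (sub_nonneg.2 h3) (by linarith : 0 ≤ 1 - 2 * r1 b),
          mul_nonneg (sub_nonneg.2 h4) (by linarith : 0 ≤ 1 - 2 * r1 b),
          sq_nonneg (r1 b - r1 a), mul_nonneg (sub_nonneg.2 h3) b0]
      · nlinarith [mul_nonneg (sub_nonneg.2 h4) (by linarith : 0 ≤ 1 - 2 * r1 b),
          mul_nonneg (sub_nonneg.2 h5) (by linarith : 0 ≤ 1 / 2 - (r1 a - r1 b))]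
  calc _ ≤ |(v - r1 a) * (1 - 2 * r1 b) + (r1 b - r1 a) ^ 2|
        + |r a * v1 + v * r1 b - (r1 a ^ 2 + r a * r2 a)| := abs_add_le _ _
    _ ≤ c₁ * |L b - L a| + c₂ * |L b - L a| := add_le_add (k3.trans k1) k2
    _ = _ := by ring

/-- `2 cosh y ≥ 2 + y²` in the form used below -/
theorem exp_add_exp_ge {p q m y : ℝ} (hp : m + y ≤ p) (hq : m - y ≤ q) :
    2 * Real.exp m * (1 + y ^ 2 / 2) ≤ Real.exp p + Real.exp q := by
  have h1 : Real.exp (m + y) ≤ Real.exp p := Real.exp_le_exp.2 hp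
  have h2 : Real.exp (m - y) ≤ Real.exp q := Real.exp_le_exp.2 hq
  have h3 : 1 + y ^ 2 / 2 ≤ Real.cosh y := by
    have e1 : Real.cosh y = 1 + 2 * Real.sinh (y / 2) ^ 2 := by
      have e2 := Real.cosh_two_mul (y / 2)
      have e3 := Real.cosh_sq (y / 2)
      rw [show 2 * (y / 2) = y by ring] at e2
      rw [e2, e3]
      ring
    have e4 : (y / 2) ^ 2 ≤ Real.sinh (y / 2) ^ 2 := by
      rw [← sq_abs, ← sq_abs (Real.sinh (y / 2)), Real.abs_sinh]
      exact pow_le_pow_left₀ (abs_nonneg _) (Real.self_le_sinh_iff.2 (abs_nonneg _)) 2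
    rw [e1]
    nlinarith
  have h4 : Real.exp (m + y) + Real.exp (m - y) = 2 * Real.exp m * Real.cosh y := by
    rw [Real.cosh_eq, sub_eq_add_neg, Real.exp_add, Real.exp_add]
    ring
  have h5 : 2 * Real.exp m * (1 + y ^ 2 / 2) ≤ 2 * Real.exp m * Real.cosh y :=
    mul_le_mul_of_nonneg_left h3 (by positivity)
  linarith

/-- **(T0)**, one half: for `a < b`, `t' = exp L`, `L` with antitone derivative:
`(b - a) exp ((L a + L b)/2) (1 + (L b - L a)²/24) ≤ t b - t a` -/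
theorem slack_lin {t L nu : ℝ → ℝ} (ht : ∀ x, HasDerivAt t (Real.exp (L x)) x)
    (hL : ∀ x, HasDerivAt L (nu x) x) (hanti : Antitone nu) {a b : ℝ} (hab : a < b) :
    (b - a) * Real.exp ((L a + L b) / 2) * (1 + (L b - L a) ^ 2 / 24) ≤ t b - t a := by
  have hconc : ConcaveOn ℝ univ L := by
    apply Antitone.concaveOn_univ_of_deriv (fun x => (hL x).differentiableAt)
    have : deriv L = nu := funext fun x => (hL x).deriv
    rw [this]
    exact hanti
  set c := (a + b) / 2 with hc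
  set h := (b - a) / 2 with hh
  have hh0 : 0 < h := by rw [hh]; linarith
  set m := (L a + L b) / 2 with hm
  set k := (L b - L a) / (b - a) with hk
  have hkb : k * (2 * h) = L b - L a := by
    rw [hk, hh]
    have : b - a ≠ 0 := by linarith
    field_simp
  -- chord bounds
  have chord : ∀ y, |y| ≤ h → m + k * y ≤ L (c + y) := by
    intro y hy
    have hy' := abs_le.1 hy
    have hba : 0 < b - a := by linarith
    have h1 : 0 ≤ (h - y) / (b - a) := div_nonneg (by linarith [hy'.2]) hba.le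
    have h2 : 0 ≤ (h + y) / (b - a) := div_nonneg (by linarith [hy'.1]) hba.le
    have h3 : (h - y) / (b - a) + (h + y) / (b - a) = 1 := by
      rw [← add_div, hh]
      field_simp
      ring
    have h4 := hconc.2 (mem_univ a) (mem_univ b) h1 h2 h3
    simp only [smul_eq_mul] at h4
    have h5 : (h - y) / (b - a) * a + (h + y) / (b - a) * b = c + y := by
      rw [hh, hc]
      field_simp
      ring
    rw [h5] at h4
    refine le_trans (le_of_eq ?_) h4
    rw [hm, hk, hh]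
    field_simp
    ring
  set g : ℝ → ℝ := fun y => (t (c + y) - t (c - y))
    - 2 * Real.exp m * (y + k ^ 2 * y ^ 3 / 6) with hg
  have hgd : ∀ y, HasDerivAt g (Real.exp (L (c + y)) + Real.exp (L (c - y))
      - 2 * Real.exp m * (1 + k ^ 2 * y ^ 2 / 2)) y := by
    intro y
    have e1 : HasDerivAt (fun y => t (c + y)) (Real.exp (L (c + y))) y :=
      HasDerivAt.comp_const_add c y (ht (c + y))
    have e2 : HasDerivAt (fun y => t (c - y)) (-Real.exp (L (c - y))) y :=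
      HasDerivAt.comp_const_sub c y (ht (c - y))
    have e3 : HasDerivAt (fun y : ℝ => 2 * Real.exp m * (y + k ^ 2 * y ^ 3 / 6))
        (2 * Real.exp m * (1 + k ^ 2 * y ^ 2 / 2)) y := by
      have e4 : HasDerivAt (fun y : ℝ => y + k ^ 2 * y ^ 3 / 6) (1 + k ^ 2 * y ^ 2 / 2) y := by
        have := (hasDerivAt_id y).add ((((hasDerivAt_pow 3 y).const_mul (k ^ 2)).div_const 6))
        rw [show 1 + k ^ 2 * y ^ 2 / 2 = 1 + k ^ 2 * (((3 : ℕ) : ℝ) * y ^ (3 - 1)) / 6 by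
          push_cast; ring]
        exact this
      exact e4.const_mul _
    have := (e1.sub e2).sub e3
    rw [show Real.exp (L (c + y)) + Real.exp (L (c - y)) - 2 * Real.exp m * (1 + k ^ 2 * y ^ 2 / 2)
      = Real.exp (L (c + y)) - -Real.exp (L (c - y))
        - 2 * Real.exp m * (1 + k ^ 2 * y ^ 2 / 2) by ring]
    exact this
  have hmono : MonotoneOn g (Icc 0 h) := by
    refine monotoneOn_of_deriv_nonneg (convex_Icc 0 h)
      (fun y _ => (hgd y).continuousAt.continuousWithinAt)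
      (fun y _ => (hgd y).differentiableAt.differentiableWithinAt) ?_
    intro y hy
    rw [interior_Icc] at hy
    rw [(hgd y).deriv]
    have hy1 : |y| ≤ h := by rw [abs_of_pos hy.1]; exact hy.2.le
    have c1 := chord y hy1
    have c2 := chord (-y) (by rw [abs_neg]; exact hy1)
    have c3 : m - k * y ≤ L (c - y) := by
      have : c + -y = c - y := by ring
      rw [this] at c2
      linarith
    have := exp_add_exp_ge c1 c3
    have e : (k * y) ^ 2 / 2 = k ^ 2 * y ^ 2 / 2 := by ring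
    rw [e] at this
    linarith
  have h0 := hmono (left_mem_Icc.2 hh0.le) (right_mem_Icc.2 hh0.le) hh0.le
  simp only [hg] at h0
  have e1 : c + h = b := by rw [hc, hh]; ring
  have e2 : c - h = a := by rw [hc, hh]; ring
  rw [e1, e2] at h0
  have e3 : (b - a) * Real.exp m * (1 + (L b - L a) ^ 2 / 24) =
      2 * Real.exp m * (h + k ^ 2 * h ^ 3 / 6) := by
    rw [← hkb]
    have : b - a = 2 * h := by rw [hh]; ring
    rw [this]
    ring
  rw [e3]
  simp at h0
  linarith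

/-- **(T0)** `(t b - t a)² ≥ (b - a)² t'(a) t'(b) (1 + (L b - L a)²/12)` for all `a, b` -/
theorem slack {t L nu : ℝ → ℝ} (ht : ∀ x, HasDerivAt t (Real.exp (L x)) x)
    (hL : ∀ x, HasDerivAt L (nu x) x) (hanti : Antitone nu) (a b : ℝ) :
    (b - a) ^ 2 * (Real.exp (L a) * Real.exp (L b)) * (1 + (L b - L a) ^ 2 / 12)
      ≤ (t b - t a) ^ 2 := by
  have key : ∀ a b : ℝ, a < b →
      (b - a) ^ 2 * (Real.exp (L a) * Real.exp (L b)) * (1 + (L b - L a) ^ 2 / 12)
        ≤ (t b - t a) ^ 2 := by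
    intro a b hab
    have h1 := slack_lin ht hL hanti hab
    have h2 : 0 ≤ (b - a) * Real.exp ((L a + L b) / 2) * (1 + (L b - L a) ^ 2 / 24) := by
      have : 0 < b - a := by linarith
      positivity
    have h3 := pow_le_pow_left₀ h2 h1 2
    refine le_trans ?_ h3
    have e : Real.exp ((L a + L b) / 2) ^ 2 = Real.exp (L a) * Real.exp (L b) := by
      rw [← Real.exp_add, ← Real.exp_nat_mul]
      congr 1
      push_cast
      ring
    rw [mul_pow, mul_pow, e]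
    have h4 : 1 + (L b - L a) ^ 2 / 12 ≤ (1 + (L b - L a) ^ 2 / 24) ^ 2 := by
      nlinarith [sq_nonneg ((L b - L a) ^ 2)]
    exact mul_le_mul_of_nonneg_left h4 (by positivity)
  rcases lt_trichotomy a b with hab | hab | hab
  · exact key a b hab
  · subst hab
    simp
  · have := key b a hab
    have e1 : (b - a) ^ 2 = (a - b) ^ 2 := by ring
    have e2 : (t b - t a) ^ 2 = (t a - t b) ^ 2 := by ring
    have e3 : (L b - L a) ^ 2 = (L a - L b) ^ 2 := by ring
    rw [e1, e2, e3, mul_comm (Real.exp (L a))]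
    exact this

/-- (T0) with a divided difference `v = t[a,b]`:
`t'(a) t'(b) (1 + (L b - L a)²/12) ≤ v²` -/
theorem slack_dd {t L nu : ℝ → ℝ} (ht : ∀ x, HasDerivAt t (Real.exp (L x)) x)
    (hL : ∀ x, HasDerivAt L (nu x) x) (hanti : Antitone nu) {a b v : ℝ}
    (h : IsDD t (fun x => Real.exp (L x)) a b v) :
    Real.exp (L a) * Real.exp (L b) * (1 + (L b - L a) ^ 2 / 12) ≤ v ^ 2 := by
  by_cases e : a = b
  · subst e
    rw [h.diag rfl]
    simp only [sub_self]
    nlinarith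
  · have h0 : 0 < (b - a) ^ 2 := by
      have : b - a ≠ 0 := sub_ne_zero.2 (Ne.symm e)
      positivity
    have h1 := slack ht hL hanti a b
    rw [← h.mul, mul_pow, mul_assoc] at h1
    exact le_of_mul_le_mul_left h1 h0

end Vale.Agent.P254.H271K
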